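import Vale.Agent.P129.H189.Defs
import Mathlib.Analysis.Normed.Module.HahnBanach
import Mathlib.Analysis.Normed.Group.Quotient
import Mathlib.Analysis.Normed.Module.FiniteDimension
import Mathlib.Order.SuccPred.Limit

/-! Part (K) of the construction (under CH) of a Banach space without separable
infinite-dimensional quotients: the killing argument, in an abstract form. -/

open Set Filter Topology
namespace Vale.Agent.P129.H223

theorem exists_dense_basis_seq {Y : Type*} [NormedAddCommGroup Y] [NormedSpace ℝ Y]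
    [TopologicalSpace.SeparableSpace Y] (hY : ¬ FiniteDimensional ℝ Y) :
    ∃ e : ℕ → Y, LinearIndependent ℝ e ∧ Dense (Submodule.span ℝ (range e) : Set Y) := by
  obtain ⟨d, hd⟩ := TopologicalSpace.exists_dense_seq Y
  obtain ⟨b, hb, hspan, hli⟩ := exists_linearIndependent ℝ (range d)
  have hdense : Dense (Submodule.span ℝ b : Set Y) := by
    rw [hspan]
    exact hd.mono Submodule.subset_span
  have hbc : Countable b := (Set.countable_range d).mono hb |>.to_subtype
  have hbi : Infinite b := by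
    by_contra hfin
    rw [not_infinite_iff_finite] at hfin
    have hfd : FiniteDimensional ℝ (Submodule.span ℝ b) :=
      FiniteDimensional.span_of_finite ℝ (Set.toFinite b)
    have hcl := Submodule.closed_of_finiteDimensional (Submodule.span ℝ b)
    have htop : Submodule.span ℝ b = ⊤ := by
      rw [← Submodule.coe_eq_univ, ← hcl.closure_eq]
      exact hdense.closure_eq
    apply hY
    rw [htop] at hfd
    exact Module.Finite.equiv Submodule.topEquiv
  obtain ⟨hden⟩ := nonempty_denumerable b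
  let e : ℕ ≃ b := (Denumerable.eqv b).symm
  refine ⟨fun n => (e n : Y), hli.comp e e.injective, ?_⟩
  have : range (fun n => (e n : Y)) = b := by
    ext x
    constructor
    · rintro ⟨n, rfl⟩; exact (e n).2
    · intro hx; exact ⟨e.symm ⟨x, hx⟩, by simp⟩
  rw [this]
  exact hdense

theorem exists_functionals {Y : Type*} [NormedAddCommGroup Y] [NormedSpace ℝ Y]
    [TopologicalSpace.SeparableSpace Y] (hY : ¬ FiniteDimensional ℝ Y) :
    ∃ g : ℕ → (Y →L[ℝ] ℝ), LinearIndependent ℝ g ∧ Dense {y : Y | ∀ᶠ n in atTop, g n y = 0} := by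
  obtain ⟨e, he, hdense⟩ := exists_dense_basis_seq hY
  have key : ∀ n : ℕ, ∃ g : Y →L[ℝ] ℝ, g (e n) = 1 ∧ ∀ k < n, g (e k) = 0 := by
    intro n
    let F : Submodule ℝ Y := Submodule.span ℝ (e '' Set.Iio n)
    have hfd : FiniteDimensional ℝ F := FiniteDimensional.span_of_finite ℝ ((Set.finite_Iio n).image e)
    have hcl : IsClosed (F : Set Y) := Submodule.closed_of_finiteDimensional F
    have hne : F.mkQ (e n) ≠ 0 := by
      intro h0
      rw [Submodule.mkQ_apply, Submodule.Quotient.mk_eq_zero] at h0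
      exact he.notMem_span_image (s := Set.Iio n) (x := n) (by simp) h0
    obtain ⟨f, hf⟩ := SeparatingDual.exists_eq_one (R := ℝ) hne
    refine ⟨f.comp F.mkQL, hf, fun k hk => ?_⟩
    have : F.mkQ (e k) = 0 := by
      rw [Submodule.mkQ_apply, Submodule.Quotient.mk_eq_zero]
      exact Submodule.subset_span ⟨k, hk, rfl⟩
    change f (F.mkQ (e k)) = 0
    rw [this, map_zero]
  choose g hg1 hg0 using key
  refine ⟨g, ?_, ?_⟩
  · rw [linearIndependent_iff']
    intro s c hsum
    by_contra hne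
    push Not at hne
    obtain ⟨i, his, hci⟩ := hne
    classical
    let t : Finset ℕ := s.filter (fun i => c i ≠ 0)
    have ht : t.Nonempty := ⟨i, by simp [t, his, hci]⟩
    let n := t.min' ht
    have hnt : n ∈ t := t.min'_mem ht
    have hns : n ∈ s := (Finset.mem_filter.1 hnt).1
    have hcn : c n ≠ 0 := (Finset.mem_filter.1 hnt).2
    have h1 := congrArg (fun f : Y →L[ℝ] ℝ => f (e n)) hsum
    simp only [_root_.sum_apply, _root_.smul_apply, smul_eq_mul,
      _root_.zero_apply] at h1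
    rw [Finset.sum_eq_single n] at h1
    · rw [hg1, mul_one] at h1; exact hcn h1
    · intro k hk hkn
      rcases lt_or_gt_of_ne hkn with h | h
      · by_cases hck : c k = 0
        · rw [hck, zero_mul]
        · exact absurd (t.min'_le k (by simp [t, hk, hck])) (not_le.2 h)
      · rw [hg0 k n h, mul_zero]
    · intro h; exact absurd hns h
  · refine hdense.mono ?_
    intro y hy
    change y ∈ Submodule.span ℝ (range e) at hy
    rw [Set.mem_ofPred_eq]
    induction hy using Submodule.span_induction with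
    | mem x hx =>
      obtain ⟨k, rfl⟩ := hx
      filter_upwards [eventually_gt_atTop k] with n hn
      exact hg0 n k hn
    | zero => simp
    | add x y _ _ hx hy =>
      filter_upwards [hx, hy] with n h1 h2
      rw [map_add, h1, h2, add_zero]
    | smul a x _ hx =>
      filter_upwards [hx] with n h1
      rw [map_smul, h1, smul_zero]

theorem exists_functionals_of_quotient {X : Type*} [NormedAddCommGroup X] [NormedSpace ℝ X]
    (h : Vale.Agent.P129.H189.HasSeparableQuotient ℝ X) :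
    ∃ g : ℕ → (X →L[ℝ] ℝ), LinearIndependent ℝ g ∧ Dense {x : X | ∀ᶠ n in atTop, g n x = 0} := by
  obtain ⟨M, hM, hsep, hfd⟩ := h
  have : IsClosed (M : Set X) := hM
  have := hsep
  obtain ⟨g, hg, hd⟩ := exists_functionals (Y := X ⧸ M) hfd
  refine ⟨fun n => (g n).comp M.mkQL, ?_, ?_⟩
  · let L : ((X ⧸ M) →L[ℝ] ℝ) →ₗ[ℝ] (X →L[ℝ] ℝ) :=
      { toFun := fun f => f.comp M.mkQL
        map_add' := fun f g => by ext; rfl
        map_smul' := fun a f => by ext; rfl }
    have hL : Function.Injective L := by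
      intro f f' hff
      ext x
      obtain ⟨x, rfl⟩ := M.mkQ_surjective x
      exact congrArg (fun φ : X →L[ℝ] ℝ => φ x) hff
    exact hg.map' L (LinearMap.ker_eq_bot.2 hL)
  · exact hd.preimage (M.isOpenMap_mkQ)

/-- A system of projections of the kind given by a monotone transfinite basis: `P a` is the
projection onto the part supported in `Set.Iio a`. -/
structure ProjSystem (ι V : Type*) [LinearOrder ι] [NormedAddCommGroup V] [NormedSpace ℝ V] where
  P : ι → V →L[ℝ] V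
  norm_le : ∀ a v, ‖P a v‖ ≤ ‖v‖
  comp_of_le : ∀ {a b}, a ≤ b → ∀ v, P a (P b v) = P a v
  comp_of_ge : ∀ {a b}, a ≤ b → ∀ v, P b (P a v) = P a v
  exists_support : ∀ v : ℕ → V, ∃ a, ∀ n, P a (v n) = v n
  bot : ∀ a, IsMin a → ∀ v, P a v = 0
  succ : ∀ a b, a ⋖ b → FiniteDimensional ℝ (LinearMap.range ((P b - P a : V →L[ℝ] V) : V →ₗ[ℝ] V))
  lim : ∀ a, Order.IsSuccLimit a → ∀ v, ∀ ε > 0, ∃ b < a, ‖P a v - P b v‖ < ε

/-- Rank one differences of projections satisfy the hypothesis `succ`. -/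
theorem finite_range_of_rank_one {V : Type*} [NormedAddCommGroup V] [NormedSpace ℝ V]
    {P Q : V →L[ℝ] V} (f : V → ℝ) (w : V) (h : ∀ v, Q v = P v + f v • w) :
    FiniteDimensional ℝ (LinearMap.range ((Q - P : V →L[ℝ] V) : V →ₗ[ℝ] V)) := by
  have h1 : FiniteDimensional ℝ (Submodule.span ℝ {w}) := FiniteDimensional.span_singleton ℝ w
  refine Submodule.finiteDimensional_of_le (S₂ := Submodule.span ℝ {w}) ?_
  rintro _ ⟨x, rfl⟩
  change Q x - P x ∈ Submodule.span ℝ {w}
  rw [h, add_sub_cancel_left]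
  exact Submodule.smul_mem _ _ (Submodule.mem_span_singleton_self w)

theorem not_finite_inf_ker {V V' : Type*} [AddCommGroup V] [Module ℝ V] [AddCommGroup V']
    [Module ℝ V'] {W : Submodule ℝ V} (hW : ¬ FiniteDimensional ℝ W) (f : V →ₗ[ℝ] V')
    (hf : FiniteDimensional ℝ (LinearMap.range f)) :
    ¬ FiniteDimensional ℝ (W ⊓ LinearMap.ker f : Submodule ℝ V) := by
  intro hfin
  apply hW
  let g : W →ₗ[ℝ] V' := f.domRestrict W
  have h1 : FiniteDimensional ℝ (LinearMap.range g) :=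
    Submodule.finiteDimensional_of_le (S₂ := LinearMap.range f) (by
      rintro _ ⟨x, rfl⟩
      exact ⟨x, rfl⟩)
  have h2 : Module.Finite ℝ (W ⧸ LinearMap.ker g) := Module.Finite.equiv g.quotKerEquivRange.symm
  let e : LinearMap.ker g →ₗ[ℝ] (W ⊓ LinearMap.ker f : Submodule ℝ V) :=
    LinearMap.codRestrict _ (W.subtype ∘ₗ (LinearMap.ker g).subtype) fun x =>
      ⟨(x : W).2, x.2⟩
  have he : Function.Injective e := fun x y h => by
    apply Subtype.ext
    apply Subtype.ext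
    exact congrArg (fun z : (W ⊓ LinearMap.ker f : Submodule ℝ V) => (z : V)) h
  have h3 : Module.Finite ℝ (LinearMap.ker g) := Module.Finite.of_injective e he
  exact Module.Finite.of_submodule_quotient (LinearMap.ker g)

theorem exists_ne_zero {V : Type*} [AddCommGroup V] [Module ℝ V] {W : Submodule ℝ V}
    (hW : ¬ FiniteDimensional ℝ W) : ∃ x ∈ W, x ≠ 0 := by
  by_contra h
  push Not at h
  apply hW
  have : W = ⊥ := (Submodule.eq_bot_iff W).2 h
  rw [this]
  infer_instance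

theorem not_finite_span_tail {V : Type*} [AddCommGroup V] [Module ℝ V] {v : ℕ → V}
    (hv : LinearIndependent ℝ v) (k : ℕ) :
    ¬ FiniteDimensional ℝ (Submodule.span ℝ (v '' Set.Ici k)) := by
  intro hfin
  have h1 : LinearIndependent ℝ (fun n : ℕ => (⟨v (k + n), Submodule.subset_span
      ⟨k + n, by simp, rfl⟩⟩ : Submodule.span ℝ (v '' Set.Ici k))) := by
    apply LinearIndependent.of_comp (Submodule.subtype _)
    exact hv.comp (fun n => k + n) (add_right_injective k)
  have := h1.finite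
  exact not_finite ℕ

theorem exists_level {ι V : Type*} [LinearOrder ι] [WellFoundedLT ι]
    [NormedAddCommGroup V] [NormedSpace ℝ V] (S : ProjSystem ι V) (v : ℕ → V)
    (hv : LinearIndependent ℝ v) (m : ι) (hm : ∀ n, S.P m (v n) = v n) :
    ∃ (l : ι) (W : ℕ → Submodule ℝ V) (δ : ℝ), Order.IsSuccLimit l ∧ 0 < δ ∧
      (∀ k, W k ≤ Submodule.span ℝ (v '' Set.Ici k)) ∧ (∀ k, W k ≤ W 0) ∧
      (∀ x ∈ W 0, δ * ‖x‖ ≤ ‖S.P l x‖) ∧
      ∀ a < l, ∀ k, ∀ ε > 0, ∃ x ∈ W k, ‖S.P l x‖ = 3 / 2 ∧ ‖S.P a x‖ < ε := by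
  let L : Set ι := {a | ∃ (W : ℕ → Submodule ℝ V) (δ : ℝ), 0 < δ ∧ Antitone W ∧
    (∀ k, ¬ FiniteDimensional ℝ (W k)) ∧ (∀ k, W k ≤ Submodule.span ℝ (v '' Set.Ici k)) ∧
    ∀ x ∈ W 0, δ * ‖x‖ ≤ ‖S.P a x‖}
  have hL : L.Nonempty := by
    refine ⟨m, fun k => Submodule.span ℝ (v '' Set.Ici k), 1, one_pos, ?_, ?_, fun _ => le_rfl, ?_⟩
    · intro i j hij
      exact Submodule.span_mono (Set.image_mono (Set.Ici_subset_Ici.2 hij))
    · exact not_finite_span_tail hv
    · intro x hx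
      have : S.P m x = x := by
        induction hx using Submodule.span_induction with
        | mem x hx => obtain ⟨n, -, rfl⟩ := hx; exact hm n
        | zero => simp
        | add x y _ _ hx hy => rw [map_add, hx, hy]
        | smul a x _ hx => rw [map_smul, hx]
      rw [this, one_mul]
  obtain ⟨l, ⟨W, δ, hδ, hanti, hinf, hsub, hlow⟩, hmin⟩ := wellFounded_lt.has_min L hL
  refine ⟨l, W, δ, ?_, hδ, hsub, fun k => hanti (Nat.zero_le k), hlow, ?_⟩
  · refine ⟨?_, ?_⟩
    · intro hbot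
      obtain ⟨x, hx, hx0⟩ := exists_ne_zero (hinf 0)
      have h1 := hlow x hx
      rw [S.bot l hbot, norm_zero] at h1
      have h2 : 0 < δ * ‖x‖ := mul_pos hδ (norm_pos_iff.2 hx0)
      linarith
    · intro a hal
      refine hmin a ⟨fun k => W k ⊓ LinearMap.ker ((S.P l - S.P a : V →L[ℝ] V) : V →ₗ[ℝ] V), δ, hδ,
        ?_, ?_, ?_, ?_⟩ hal.lt
      · intro i j hij
        exact inf_le_inf_right _ (hanti hij)
      · exact fun k => not_finite_inf_ker (hinf k) _ (S.succ a l hal)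
      · exact fun k => inf_le_left.trans (hsub k)
      · rintro x ⟨hx, hfx⟩
        have hfx' : S.P l x - S.P a x = 0 := hfx
        rw [← sub_eq_zero.1 hfx']
        exact hlow x hx
  · intro a hal k ε hε
    by_contra hcon
    push Not at hcon
    refine hmin a ⟨fun j => W (k + j), 2 * ε / 3 * δ, by positivity, ?_, fun j => hinf _,
      ?_, ?_⟩ hal
    · intro i j hij
      exact hanti (by lia)
    · intro j
      exact (hsub _).trans (Submodule.span_mono (Set.image_mono (Set.Ici_subset_Ici.2 (by lia))))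
    · intro x hx
      replace hx : x ∈ W k := hx
      by_cases hx0 : x = 0
      · simp [hx0]
      have h1 := hlow x (hanti (Nat.zero_le k) hx)
      have h2 : 0 < ‖S.P l x‖ := lt_of_lt_of_le (mul_pos hδ (norm_pos_iff.2 hx0)) h1
      have h3 := hcon ((3 / 2 / ‖S.P l x‖) • x) ((W k).smul_mem _ hx) (by
        rw [map_smul, norm_smul, Real.norm_of_nonneg (by positivity)]
        field_simp)
      rw [map_smul, norm_smul, Real.norm_of_nonneg (by positivity)] at h3
      have h4 : ε * ‖S.P l x‖ ≤ 3 / 2 * ‖S.P a x‖ := by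
        have := mul_le_mul_of_nonneg_right h3 h2.le
        calc ε * ‖S.P l x‖ ≤ 3 / 2 / ‖S.P l x‖ * ‖S.P a x‖ * ‖S.P l x‖ := this
          _ = 3 / 2 * ‖S.P a x‖ := by field_simp
      nlinarith [mul_le_mul_of_nonneg_left h1 hε.le]


/-- `h` is a block sequence with supports in the consecutive intervals `[α k, α (k+1))`, with
norms in `[1, 2]`. -/
structure IsBlock {ι V : Type*} [LinearOrder ι] [NormedAddCommGroup V] [NormedSpace ℝ V]
    (S : ProjSystem ι V) (l : ι) (α : ℕ → ι) (h : ℕ → V) : Prop where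
  mono : StrictMono α
  lt : ∀ k, α k < l
  cofinal : ∀ b < l, ∃ k, b ≤ α k
  low : ∀ k, S.P (α k) (h k) = 0
  high : ∀ k, S.P (α (k + 1)) (h k) = h k
  one_le : ∀ k, 1 ≤ ‖h k‖
  le_two : ∀ k, ‖h k‖ ≤ 2

theorem exists_step {ι V : Type*} [LinearOrder ι]
    [NormedAddCommGroup V] [NormedSpace ℝ V] (S : ProjSystem ι V) {l : ι}
    (hl : Order.IsSuccLimit l) {W : ℕ → Submodule ℝ V}
    (hW : ∀ a < l, ∀ k, ∀ ε > 0, ∃ x ∈ W k, ‖S.P l x‖ = 3 / 2 ∧ ‖S.P a x‖ < ε)
    (β : ℕ → ι) (hβ : ∀ k, β k < l) (ε : ℕ → ℝ) (hε : ∀ k, 0 < ε k) (k : ℕ) (a : Set.Iio l) :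
    ∃ (x : V) (a' : Set.Iio l), x ∈ W k ∧ ‖S.P l x‖ = 3 / 2 ∧ ‖S.P (a : ι) x‖ < ε k ∧ a < a' ∧
      β k ≤ a' ∧ ‖S.P l x - S.P (a' : ι) x‖ < ε k := by
  obtain ⟨x, hx, hx1, hx2⟩ := hW a a.2 k (ε k) (hε k)
  obtain ⟨b, hbl, hb⟩ := S.lim l hl x (ε k / 2) (half_pos (hε k))
  obtain ⟨c, hac, hcl⟩ := (not_covBy_iff a.2).1 (hl.2 (a : ι))
  refine ⟨x, ⟨max (max (β k) b) c, max_lt (max_lt (hβ k) hbl) hcl⟩, hx, hx1, hx2, ?_, ?_, ?_⟩
  · change (a : ι) < max (max (β k) b) c
    exact lt_of_lt_of_le hac (le_max_right _ _)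
  · exact (le_max_left _ _).trans (le_max_left _ _)
  · set d := max (max (β k) b) c with hd
    have hbd : b ≤ d := (le_max_right _ _).trans (le_max_left _ _)
    have hdl : d < l := max_lt (max_lt (hβ k) hbl) hcl
    have e1 : S.P l x - S.P d x = (S.P l x - S.P b x) - S.P d (S.P l x - S.P b x) := by
      rw [map_sub, S.comp_of_le hdl.le, S.comp_of_ge hbd]
      abel
    change ‖S.P l x - S.P d x‖ < ε k
    rw [e1]
    have h1 := norm_sub_le (S.P l x - S.P b x) (S.P d (S.P l x - S.P b x))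
    have h2 := S.norm_le d (S.P l x - S.P b x)
    linarith

theorem exists_gliding {ι V : Type*} [LinearOrder ι]
    [NormedAddCommGroup V] [NormedSpace ℝ V] (S : ProjSystem ι V)
    (hcount : ∀ a : ι, (Set.Iio a).Countable) (R : Set V)
    (hR : ∀ a b : ι, a < b → ∀ w : V, S.P a w = 0 → S.P b w = w → ∀ ε > 0,
      ∃ r ∈ R, S.P a r = 0 ∧ S.P b r = r ∧ ‖r - w‖ < ε) {l : ι}
    (hl : Order.IsSuccLimit l) {W : ℕ → Submodule ℝ V}
    (hW : ∀ a < l, ∀ k, ∀ ε > 0, ∃ x ∈ W k, ‖S.P l x‖ = 3 / 2 ∧ ‖S.P a x‖ < ε) :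
    ∃ (α : ℕ → ι) (z r : ℕ → V), IsBlock S l α r ∧ (∀ k, r k ∈ R) ∧ (∀ k, z k ∈ W k) ∧
      ∀ k, ‖r k - S.P l (z k)‖ ≤ 1 / 4 * (1 / 2) ^ k := by
  have hne : (Set.Iio l).Nonempty := by
    by_contra h
    rw [Set.not_nonempty_iff_eq_empty, Set.Iio_eq_empty_iff] at h
    exact hl.1 h
  obtain ⟨β, hβ⟩ := (hcount l).exists_eq_range hne
  have hβl : ∀ k, β k < l := fun k => by
    have : β k ∈ Set.Iio l := hβ ▸ Set.mem_range_self k
    exact this
  let ε : ℕ → ℝ := fun k => 1 / 12 * (1 / 2) ^ k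
  have hε : ∀ k, 0 < ε k := fun k => by positivity
  choose X A hXW hXn hXa hlt hβA hXl using exists_step S hl hW β hβl ε hε
  let a : ℕ → Set.Iio l := fun n => Nat.rec ⟨β 0, hβl 0⟩ (fun k b => A k b) n
  have ha : ∀ k, a (k + 1) = A k (a k) := fun k => rfl
  let z : ℕ → V := fun k => X k (a k)
  let w : ℕ → V := fun k => S.P (a (k + 1)).1 (z k) - S.P (a k).1 (z k)
  have hak : ∀ k, (a k).1 < (a (k + 1)).1 := fun k => by
    rw [ha]; exact hlt k (a k)
  have hw1 : ∀ k, S.P (a k).1 (w k) = 0 := fun k => by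
    simp only [w]
    rw [map_sub, S.comp_of_le (hak k).le, S.comp_of_le le_rfl, sub_self]
  have hw2 : ∀ k, S.P (a (k + 1)).1 (w k) = w k := fun k => by
    simp only [w]
    rw [map_sub, S.comp_of_le le_rfl, S.comp_of_ge (hak k).le]
  have hw3 : ∀ k, ‖w k - S.P l (z k)‖ ≤ 2 * ε k := fun k => by
    have e1 : w k - S.P l (z k) = -(S.P l (z k) - S.P (a (k + 1)).1 (z k)) -
        S.P (a k).1 (z k) := by
      simp only [w]; abel
    rw [e1]
    refine (norm_sub_le _ _).trans ?_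
    rw [norm_neg]
    have h1 := hXl k (a k)
    have h2 := hXa k (a k)
    rw [← ha] at h1
    have h1' : ‖S.P l (z k) - S.P (a (k + 1)).1 (z k)‖ < ε k := h1
    have h2' : ‖S.P (a k).1 (z k)‖ < ε k := h2
    linarith
  choose r hrR hr1 hr2 hr3 using fun k => hR (a k).1 (a (k + 1)).1 (hak k) (w k) (hw1 k) (hw2 k)
    (ε k) (hε k)
  have hrz : ∀ k, ‖r k - S.P l (z k)‖ ≤ 1 / 4 * (1 / 2) ^ k := fun k => by
    have e1 : r k - S.P l (z k) = (r k - w k) + (w k - S.P l (z k)) := by abel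
    have h1 := norm_add_le (r k - w k) (w k - S.P l (z k))
    rw [← e1] at h1
    have h2 := hr3 k
    have h3 := hw3 k
    have h4 : ε k = 1 / 12 * (1 / 2) ^ k := rfl
    linarith
  have hpow : ∀ k : ℕ, (1 / 2 : ℝ) ^ k ≤ 1 := fun k => pow_le_one₀ (by norm_num) (by norm_num)
  refine ⟨fun k => (a k).1, z, r, ⟨?_, fun k => (a k).2, ?_, hr1, hr2, ?_, ?_⟩, hrR, fun k => hXW k _,
    hrz⟩
  · exact strictMono_nat_of_lt_succ hak
  · intro b hb
    have : b ∈ range β := hβ ▸ hb
    obtain ⟨k, rfl⟩ := this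
    exact ⟨k + 1, by rw [ha]; exact hβA k (a k)⟩
  · intro k
    have h1 : ‖S.P l (z k)‖ = 3 / 2 := hXn k (a k)
    have h2 := norm_sub_norm_le (S.P l (z k)) (r k)
    rw [norm_sub_rev] at h2
    have h3 := hrz k
    have h4 := hpow k
    linarith
  · intro k
    have h1 : ‖S.P l (z k)‖ = 3 / 2 := hXn k (a k)
    have h2 := norm_sub_norm_le (r k) (S.P l (z k))
    have h3 := hrz k
    have h4 := hpow k
    linarith



theorem sum_pow_le (s : Finset ℕ) (i : ℕ) (hs : ∀ k ∈ s, i ≤ k) :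
    ∑ k ∈ s, (1 / 2 : ℝ) ^ k ≤ 2 * (1 / 2) ^ i := by
  have h1 : ∑ k ∈ s, (1 / 2 : ℝ) ^ k ≤ ∑ k ∈ (Finset.range (s.sup id + 1 - i)).image (i + ·),
      (1 / 2 : ℝ) ^ k := by
    apply Finset.sum_le_sum_of_subset_of_nonneg
    · intro k hk
      have h2 : k ≤ s.sup id := Finset.le_sup (f := id) hk
      have h3 := hs k hk
      exact Finset.mem_image.2 ⟨k - i, Finset.mem_range.2 (by lia), by lia⟩
    · intros; positivity
  refine h1.trans ?_
  rw [Finset.sum_image (fun x _ y _ h => by simpa using h)]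
  simp only [pow_add]
  rw [← Finset.mul_sum]
  have h4 := sum_geometric_two_le (s.sup id + 1 - i)
  have h5 : (0 : ℝ) ≤ (1 / 2) ^ i := by positivity
  nlinarith [mul_le_mul_of_nonneg_left h4 h5]

/-- Coefficients of a combination of a block sequence are bounded by the norm. -/
theorem abs_coeff_le {ι V : Type*} [LinearOrder ι] [NormedAddCommGroup V] [NormedSpace ℝ V]
    (S : ProjSystem ι V) {l : ι} {α : ℕ → ι} {h : ℕ → V} (hh : IsBlock S l α h)
    (c : ℕ →₀ ℝ) (k : ℕ) : |c k| ≤ 2 * ‖c.sum fun j t => t • h j‖ := by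
  have h1 : ∀ j k, j < k → S.P (α k) (h j) = h j := fun j k hjk => by
    rw [← hh.high j, S.comp_of_ge (hh.mono.monotone (by lia))]
  have h2 : ∀ j k, k ≤ j → S.P (α k) (h j) = 0 := fun j k hjk => by
    have := S.comp_of_le (hh.mono.monotone hjk) (h j)
    rw [hh.low, map_zero] at this
    exact this.symm
  have h3 : S.P (α (k + 1)) (c.sum fun j t => t • h j) - S.P (α k) (c.sum fun j t => t • h j) =
      c k • h k := by
    rw [Finsupp.sum, map_sum, map_sum, ← Finset.sum_sub_distrib]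
    rw [Finset.sum_eq_single k]
    · rw [map_smul, map_smul, h1 k (k + 1) (by lia), h2 k k le_rfl, smul_zero, sub_zero]
    · intro j _ hjk
      rcases lt_or_gt_of_ne hjk with h | h
      · rw [map_smul, map_smul, h1 j (k + 1) (by lia), h1 j k h, sub_self]
      · rw [map_smul, map_smul, h2 j (k + 1) h, h2 j k h.le, sub_self]
    · intro hk
      rw [Finsupp.notMem_support_iff] at hk
      rw [hk]
      simp
  have h4 : ‖c k • h k‖ ≤ 2 * ‖c.sum fun j t => t • h j‖ := by
    rw [← h3]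
    refine (norm_sub_le _ _).trans ?_
    have e1 := S.norm_le (α (k + 1)) (c.sum fun j t => t • h j)
    have e2 := S.norm_le (α k) (c.sum fun j t => t • h j)
    linarith
  rw [norm_smul, Real.norm_eq_abs] at h4
  have h5 := hh.one_le k
  nlinarith [abs_nonneg (c k)]

theorem exists_bound {E : Type*} [NormedAddCommGroup E] [NormedSpace ℝ E] (f : E →L[ℝ] ℝ) :
    ∃ C : ℝ, ∀ z : E, |f z| ≤ C * ‖z‖ := ⟨‖f‖, fun z => f.le_opNorm z⟩

/-- The form of the duality which is proved in `H168.dualIsV` gives the form used below. -/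
theorem hdual_of_lin {V : Type*} [NormedAddCommGroup V] [NormedSpace ℝ V]
    (X : Submodule ℝ (V →L[ℝ] ℝ))
    (h : ∀ (f : X →ₗ[ℝ] ℝ) (C : ℝ), (∀ z : X, |f z| ≤ C * ‖(z : V →L[ℝ] ℝ)‖) →
      ∃ v : V, ∀ x : X, f x = (x : V →L[ℝ] ℝ) v) (f : X →L[ℝ] ℝ) :
    ∃ v : V, ∀ x : X, f x = (x : V →L[ℝ] ℝ) v := by
  obtain ⟨C, hC⟩ := exists_bound (E := X) f
  exact h (f : X →ₗ[ℝ] ℝ) C hC

/-- The killing argument. `R` is the dense set (rational vectors of finite support) from which the
block sequences of the supply lemma are taken. -/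
theorem no_separable_quotient {ι V : Type*} [LinearOrder ι] [WellFoundedLT ι]
    [NormedAddCommGroup V] [NormedSpace ℝ V] (S : ProjSystem ι V)
    (hcount : ∀ a : ι, (Set.Iio a).Countable)
    (R : Set V)
    (hR : ∀ a b : ι, a < b → ∀ w : V, S.P a w = 0 → S.P b w = w → ∀ ε > 0,
      ∃ r ∈ R, S.P a r = 0 ∧ S.P b r = r ∧ ‖r - w‖ < ε)
    (X : Submodule ℝ (V →L[ℝ] ℝ))
    (hdual : ∀ f : X →L[ℝ] ℝ, ∃ v : V, ∀ x : X, f x = (x : V →L[ℝ] ℝ) v)
    (hsupply : ∀ l : ι, Order.IsSuccLimit l → ∀ (α : ℕ → ι) (h : ℕ → V), IsBlock S l α h →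
      (∀ k, h k ∈ R) → ∀ m : ι, ∃ y ∈ X, (∀ v, S.P m v = v → y v = y (S.P l v)) ∧
        ∃ (C : ℝ) (u : ℕ → V), (∀ i, u i ∈ Submodule.span ℝ (h '' Set.Ici i)) ∧
          (∀ i, ‖u i‖ ≤ C) ∧ ∀ i, 1 ≤ y (u i)) :
    ¬ H189.HasSeparableQuotient ℝ X := by
  intro hSQ
  obtain ⟨g, hgli, hgd⟩ := exists_functionals_of_quotient hSQ
  choose v hv using fun n => hdual (g n)
  have hvli : LinearIndependent ℝ v := by
    rw [linearIndependent_iff'] at hgli ⊢
    intro s c hc
    refine hgli s c ?_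
    ext x
    have : (x : V →L[ℝ] ℝ) (∑ i ∈ s, c i • v i) = 0 := by rw [hc, map_zero]
    rw [map_sum] at this
    simp only [map_smul] at this
    simpa [hv] using this
  obtain ⟨m, hm⟩ := S.exists_support v
  obtain ⟨l, W, δ, hl, hδ, hWs, hW0, hWδ, hW⟩ := exists_level S v hvli m hm
  obtain ⟨α, z, r, hblock, hrR, hzW, hrz⟩ := exists_gliding S hcount R hR hl hW
  obtain ⟨y, hyX, hy, C, u, hu, huC, hyu⟩ := hsupply l hl α r hblock hrR m
  have hC : 0 ≤ C := (norm_nonneg _).trans (huC 0)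
  choose c hcs hcu using fun i => (Finsupp.mem_span_image_iff_linearCombination ℝ).1 (hu i)
  let t : ℕ → V := fun i => (c i).sum fun k a => a • z k
  have hcI : ∀ i, ∀ k ∈ (c i).support, i ≤ k := fun i k hk => by
    have := (Finsupp.mem_supported ℝ (c i)).1 (hcs i) hk
    exact this
  have hcC : ∀ i k, |c i k| ≤ 2 * C := fun i k => by
    have h1 := abs_coeff_le S hblock (c i) k
    have h2 : ((c i).sum fun j t => t • r j) = u i := by
      rw [← hcu i, Finsupp.linearCombination_apply]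
    rw [h2] at h1
    have h3 := huC i
    linarith
  have htW : ∀ i, t i ∈ W 0 := fun i =>
    Submodule.sum_mem _ fun k _ => Submodule.smul_mem _ _ (hW0 k (hzW k))
  have htv : ∀ i, t i ∈ Submodule.span ℝ (v '' Set.Ici i) := fun i =>
    Submodule.sum_mem _ fun k hk => Submodule.smul_mem _ _
      (Submodule.span_mono (Set.image_mono (Set.Ici_subset_Ici.2 (hcI i k hk))) (hWs k (hzW k)))
  have htu : ∀ i, ‖S.P l (t i) - u i‖ ≤ C * (1 / 2) ^ i := fun i => by
    have e1 : S.P l (t i) - u i = ∑ k ∈ (c i).support, c i k • (S.P l (z k) - r k) := by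
      rw [← hcu i, Finsupp.linearCombination_apply]
      simp only [t, Finsupp.sum, map_sum, map_smul, smul_sub, Finset.sum_sub_distrib]
    rw [e1]
    refine (norm_sum_le _ _).trans ?_
    have h1 : ∀ k ∈ (c i).support, ‖c i k • (S.P l (z k) - r k)‖ ≤
        C / 2 * (1 / 2) ^ k := fun k _ => by
      rw [norm_smul, Real.norm_eq_abs, norm_sub_rev]
      have h2 := hcC i k
      have h3 := hrz k
      have h4 : (0 : ℝ) < (1 / 2) ^ k := by positivity
      calc |c i k| * ‖r k - S.P l (z k)‖ ≤ (2 * C) * (1 / 4 * (1 / 2) ^ k) :=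
            mul_le_mul h2 h3 (norm_nonneg _) (by positivity)
        _ = C / 2 * (1 / 2) ^ k := by ring
    refine (Finset.sum_le_sum h1).trans ?_
    rw [← Finset.mul_sum]
    have h5 := sum_pow_le (c i).support i (hcI i)
    nlinarith [mul_le_mul_of_nonneg_left h5 hC]
  have hpow : ∀ k : ℕ, (1 / 2 : ℝ) ^ k ≤ 1 := fun k => pow_le_one₀ (by norm_num) (by norm_num)
  have htn : ∀ i, ‖t i‖ ≤ 2 * C / δ := fun i => by
    rw [le_div_iff₀ hδ, mul_comm]
    refine (hWδ _ (htW i)).trans ?_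
    have h1 := norm_add_le (S.P l (t i) - u i) (u i)
    rw [sub_add_cancel] at h1
    have h2 := htu i
    have h3 := huC i
    have h4 := mul_le_mul_of_nonneg_left (hpow i) hC
    linarith
  have hspan : ∀ x ∈ Submodule.span ℝ (range v), S.P m x = x := fun x hx => by
    induction hx using Submodule.span_induction with
    | mem x hx => obtain ⟨n, rfl⟩ := hx; exact hm n
    | zero => simp
    | add x y _ _ hx hy => rw [map_add, hx, hy]
    | smul a x _ hx => rw [map_smul, hx]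
  have htm : ∀ i, S.P m (t i) = t i := fun i =>
    hspan _ (Submodule.span_mono (Set.image_subset_range _ _) (htv i))
  have hyt : ∀ i, 1 - ‖y‖ * (C * (1 / 2) ^ i) ≤ y (t i) := fun i => by
    rw [hy _ (htm i)]
    have e1 : y (S.P l (t i)) = y (u i) + y (S.P l (t i) - u i) := by
      rw [map_sub]; abel
    rw [e1]
    have h1 := hyu i
    have h2 : |y (S.P l (t i) - u i)| ≤ ‖y‖ * (C * (1 / 2) ^ i) := by
      rw [← Real.norm_eq_abs]
      exact (y.le_opNorm _).trans (mul_le_mul_of_nonneg_left (htu i) (norm_nonneg _))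
    have h3 := neg_abs_le (y (S.P l (t i) - u i))
    linarith
  -- pointwise convergence to zero
  obtain ⟨x, hx, hxy⟩ := Metric.dense_iff.1 hgd ⟨y, hyX⟩ (1 / (4 * (2 * C / δ + 1))) (by positivity)
  rw [Metric.mem_ball, Subtype.dist_eq, dist_eq_norm] at hx
  obtain ⟨N, hN⟩ := Filter.eventually_atTop.1 hxy
  have hxs : ∀ w ∈ Submodule.span ℝ (v '' Set.Ici N), (x : V →L[ℝ] ℝ) w = 0 := fun w hw => by
    induction hw using Submodule.span_induction with
    | mem w hw =>
      obtain ⟨n, hn, rfl⟩ := hw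
      rw [← hv n x]
      exact hN n hn
    | zero => simp
    | add a b _ _ ha hb => rw [map_add, ha, hb, add_zero]
    | smul a b _ hb => rw [map_smul, hb, smul_zero]
  have hxt : ∀ i, N ≤ i → (x : V →L[ℝ] ℝ) (t i) = 0 := fun i hi =>
    hxs _ (Submodule.span_mono (Set.image_mono (Set.Ici_subset_Ici.2 hi)) (htv i))
  have hlim : Tendsto (fun i : ℕ => ‖y‖ * (C * (1 / 2 : ℝ) ^ i)) atTop (𝓝 0) := by
    have h1 := tendsto_pow_atTop_nhds_zero_of_lt_one (r := (1 / 2 : ℝ)) (by norm_num) (by norm_num)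
    have h2 := (h1.const_mul C).const_mul ‖y‖
    simpa using h2
  obtain ⟨N', hN'⟩ := Filter.eventually_atTop.1 (hlim.eventually (gt_mem_nhds (show (0 : ℝ) < 1 / 2 by norm_num)))
  have h1 := hyt (max N N')
  have h2 := hN' (max N N') (le_max_right _ _)
  have h3 := hxt (max N N') (le_max_left _ _)
  have h4 : |y (t (max N N')) - (x : V →L[ℝ] ℝ) (t (max N N'))| ≤ 1 / 4 := by
    have e1 : y (t (max N N')) - (x : V →L[ℝ] ℝ) (t (max N N')) =
        (y - (x : V →L[ℝ] ℝ)) (t (max N N')) := rfl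
    rw [e1, ← Real.norm_eq_abs]
    have h5 : ‖y - (x : V →L[ℝ] ℝ)‖ < 1 / (4 * (2 * C / δ + 1)) := by
      rw [norm_sub_rev]
      exact hx
    have h6 := htn (max N N')
    refine ((y - (x : V →L[ℝ] ℝ)).le_opNorm _).trans ?_
    calc ‖y - (x : V →L[ℝ] ℝ)‖ * ‖t (max N N')‖ ≤ 1 / (4 * (2 * C / δ + 1)) * (2 * C / δ) :=
          mul_le_mul h5.le h6 (norm_nonneg _) (by positivity)
      _ ≤ 1 / 4 := by
          have h7 : 0 ≤ 2 * C / δ := by positivity
          rw [div_mul_eq_mul_div, one_mul, div_le_div_iff₀ (by positivity) (by norm_num)]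
          linarith
  rw [h3, sub_zero] at h4
  have h8 := le_abs_self (y (t (max N N')))
  linarith

end Vale.Agent.P129.H223
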