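import Vale.Agent.P129.H168.Dual
import Vale.Agent.P129.H3.Prod

/-! From a frame and a branch system with the killing property to the hypotheses of
`no_separable_quotient`. -/

open Filter Topology Set

namespace Vale.Agent.P129.H223

open H168

universe u v

variable {ι : Type u} [LinearOrder ι] {V : Type v} [NormedAddCommGroup V] [NormedSpace ℝ V]

/-! ### Frames as systems of projections -/

theorem frame_norm_P_apply_le (F : Frame ι V) (a : ι) (v : V) : ‖F.P a v‖ ≤ ‖v‖ := by
  have h1 := (F.P a).le_opNorm v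
  have h2 := F.norm_P_le a
  nlinarith [norm_nonneg v]

theorem frame_P_fin (F : Frame ι V) (a : ι) {x : V}
    (hx : x ∈ Submodule.span ℝ (Set.range F.e)) :
    F.P a x ∈ Submodule.span ℝ (Set.range F.e) := by
  induction hx using Submodule.span_induction with
  | mem x hx =>
    obtain ⟨i, rfl⟩ := hx
    rw [F.P_e]
    split_ifs
    · exact Submodule.subset_span ⟨i, rfl⟩
    · exact Submodule.zero_mem _
  | zero => rw [map_zero]; exact Submodule.zero_mem _
  | add x y _ _ hx hy => rw [map_add]; exact Submodule.add_mem _ hx hy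
  | smul c x _ hx => rw [map_smul]; exact Submodule.smul_mem _ _ hx

theorem frame_exists_approx (F : Frame ι V) (v : V) {ε : ℝ} (hε : 0 < ε) :
    ∃ x ∈ Submodule.span ℝ (Set.range F.e), ‖x - v‖ < ε := by
  have h1 : v ∈ closure (Submodule.span ℝ (Set.range F.e) : Set V) := by
    rw [← Submodule.topologicalClosure_coe, F.dense]
    trivial
  obtain ⟨x, hx, hxv⟩ := Metric.mem_closure_iff.1 h1 ε hε
  exact ⟨x, hx, by rwa [dist_comm, dist_eq_norm] at hxv⟩

/-- For a finitely supported vector there is a finite set of indices carrying it. -/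
theorem frame_exists_finset (F : Frame ι V) {x : V}
    (hx : x ∈ Submodule.span ℝ (Set.range F.e)) :
    ∃ s : Finset ι, x ∈ Submodule.span ℝ (F.e '' s) := by
  classical
  induction hx using Submodule.span_induction with
  | mem x hx =>
    obtain ⟨i, rfl⟩ := hx
    exact ⟨{i}, Submodule.subset_span ⟨i, by simp, rfl⟩⟩
  | zero => exact ⟨∅, Submodule.zero_mem _⟩
  | add x y _ _ hx hy =>
    obtain ⟨s, hs⟩ := hx
    obtain ⟨t, ht⟩ := hy
    refine ⟨s ∪ t, Submodule.add_mem _ (Submodule.span_mono (Set.image_mono ?_) hs)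
      (Submodule.span_mono (Set.image_mono ?_) ht)⟩
    · simp
    · simp
  | smul c x _ hx =>
    obtain ⟨s, hs⟩ := hx
    exact ⟨s, Submodule.smul_mem _ _ hs⟩

/-- Two bounded operators which agree on `e '' s` agree on its span. -/
theorem eq_of_mem_span {S : Set V} {f g : V →L[ℝ] V} (h : ∀ x ∈ S, f x = g x) {x : V}
    (hx : x ∈ Submodule.span ℝ S) : f x = g x := by
  induction hx using Submodule.span_induction with
  | mem x hx => exact h x hx
  | zero => rw [map_zero, map_zero]
  | add x y _ _ hx hy => rw [map_add, map_add, hx, hy]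
  | smul c x _ hx => rw [map_smul, map_smul, hx]

theorem frame_exists_support (F : Frame ι V)
    (hcof : ∀ s : Set ι, s.Countable → ∃ a, ∀ b ∈ s, b < a) (v : ℕ → V) :
    ∃ a, ∀ n, F.P a (v n) = v n := by
  have h1 : ∀ n k : ℕ, ∃ x ∈ Submodule.span ℝ (Set.range F.e), ‖x - v n‖ < 1 / ((k : ℝ) + 1) :=
    fun n k => frame_exists_approx F (v n) (by positivity)
  choose x hx hxv using h1
  choose s hs using fun n k => frame_exists_finset F (hx n k)
  obtain ⟨a, ha⟩ := hcof (⋃ n, ⋃ k, (s n k : Set ι))
    (countable_iUnion fun n => countable_iUnion fun k => (s n k).countable_toSet)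
  refine ⟨a, fun n => ?_⟩
  have h2 : ∀ k, F.P a (x n k) = x n k := fun k => by
    refine eq_of_mem_span (f := F.P a) (g := ContinuousLinearMap.id ℝ V) ?_ (hs n k)
    rintro _ ⟨i, hi, rfl⟩
    have : i < a := ha i (Set.mem_iUnion.2 ⟨n, Set.mem_iUnion.2 ⟨k, hi⟩⟩)
    rw [F.P_e, if_pos this]
    rfl
  have h3 : Tendsto (fun k => x n k) atTop (𝓝 (v n)) := by
    rw [tendsto_iff_norm_sub_tendsto_zero]
    exact squeeze_zero (fun k => norm_nonneg _) (fun k => (hxv n k).le)
      tendsto_one_div_add_atTop_nhds_zero_nat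
  have h4 : Tendsto (fun k => F.P a (x n k)) atTop (𝓝 (F.P a (v n))) :=
    ((F.P a).continuous.tendsto _).comp h3
  simp only [h2] at h4
  exact tendsto_nhds_unique h4 h3

/-- A frame over an index set of uncountable cofinality is a system of projections. -/
noncomputable def projSystem (F : Frame ι V)
    (hcof : ∀ s : Set ι, s.Countable → ∃ a, ∀ b ∈ s, b < a) : ProjSystem ι V where
  P := F.P
  norm_le := frame_norm_P_apply_le F
  comp_of_le {a b} hab v := by rw [F.P_P, min_eq_left hab]
  comp_of_ge {a b} hab v := by rw [F.P_P, min_eq_right hab]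
  exists_support := frame_exists_support F hcof
  bot a ha v := by
    have : F.P a = 0 := by
      refine ContinuousLinearMap.ext_on F.denseSpan ?_
      rintro _ ⟨i, rfl⟩
      rw [F.P_e, if_neg (fun h => ha.not_lt h)]
      rfl
    rw [this]
    rfl
  succ a b hab := by
    refine finite_range_of_rank_one (fun v => F.es a v) (F.e a) fun v => ?_
    have : F.P b = F.P a + (F.es a).smulRight (F.e a) := by
      refine ContinuousLinearMap.ext_on F.denseSpan ?_
      rintro _ ⟨i, rfl⟩
      rw [add_apply, ContinuousLinearMap.smulRight_apply, F.P_e, F.P_e, F.es_e]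
      rcases lt_trichotomy i a with h | h | h
      · rw [if_pos (h.trans hab.lt), if_pos h, if_neg h.ne', zero_smul, add_zero]
      · subst h
        rw [if_pos hab.lt, if_neg (lt_irrefl i), if_pos rfl, one_smul, zero_add]
      · rw [if_neg (not_lt.2 (hab.ge_of_gt h)), if_neg (not_lt.2 h.le), if_neg h.ne, zero_smul,
          add_zero]
    rw [this]
    rfl
  lim a ha v ε hε := by
    obtain ⟨x, hx, hxv⟩ := frame_exists_approx F v hε
    obtain ⟨s, hs⟩ := frame_exists_finset F hx
    classical
    obtain ⟨b, hba, hb⟩ : ∃ b < a, ∀ i ∈ s, i < a → i ≤ b := by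
      have hne : ∃ c, c < a := by
        by_contra h
        push Not at h
        exact ha.1 fun c _ => h c
      obtain ⟨c, hc⟩ := hne
      refine ⟨(insert c (s.filter (· < a))).max' (Finset.insert_nonempty _ _), ?_, ?_⟩
      · rcases Finset.mem_insert.1 (Finset.max'_mem (insert c (s.filter (· < a)))
          (Finset.insert_nonempty _ _)) with h | h
        · rw [h]; exact hc
        · exact (Finset.mem_filter.1 h).2
      · intro i hi hia
        exact Finset.le_max' _ _ (by simp [hi, hia])
    obtain ⟨c, hbc, hca⟩ := (not_covBy_iff hba).1 (ha.2 b)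
    refine ⟨c, hca, ?_⟩
    have h1 : F.P a x = F.P c x := by
      refine eq_of_mem_span ?_ hs
      rintro _ ⟨i, hi, rfl⟩
      rw [F.P_e, F.P_e]
      by_cases hia : i < a
      · rw [if_pos hia, if_pos ((hb i hi hia).trans_lt hbc)]
      · rw [if_neg hia, if_neg (fun h => hia (h.trans hca))]
    have h2 : F.P a v - F.P c v = (F.P a - F.P c) (v - x) := by
      rw [sub_apply, map_sub, map_sub, h1]
      abel
    rw [h2]
    have h3 := ((F.P a - F.P c).le_opNorm (v - x))
    have h4 := F.norm_P_sub_le c a hca.le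
    rw [norm_sub_rev] at hxv
    have h5 : ‖F.P a - F.P c‖ * ‖v - x‖ ≤ 1 * ‖v - x‖ :=
      mul_le_mul_of_nonneg_right h4 (norm_nonneg _)
    linarith

/-- Finitely supported vectors are dense in the intervals. -/
theorem frame_dense_interval (F : Frame ι V) (a b : ι) (hab : a < b) (w : V)
    (hwa : F.P a w = 0) (hwb : F.P b w = w) (ε : ℝ) (hε : 0 < ε) :
    ∃ r ∈ (Submodule.span ℝ (Set.range F.e) : Set V), F.P a r = 0 ∧ F.P b r = r ∧
      ‖r - w‖ < ε := by
  obtain ⟨x, hx, hxw⟩ := frame_exists_approx F w hε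
  refine ⟨F.P b x - F.P a x, Submodule.sub_mem _ (frame_P_fin F b hx) (frame_P_fin F a hx),
    ?_, ?_, ?_⟩
  · rw [map_sub, F.P_P, F.P_P, min_eq_left hab.le, min_self, sub_self]
  · rw [map_sub, F.P_P, F.P_P, min_eq_right hab.le, min_self]
  · have h2 : F.P b x - F.P a x - w = (F.P b - F.P a) (x - w) := by
      rw [sub_apply, map_sub, map_sub, hwa, hwb]
      abel
    rw [h2]
    have h3 := ((F.P b - F.P a).le_opNorm (x - w))
    have h4 := F.norm_P_sub_le a b hab.le
    have h5 : ‖F.P b - F.P a‖ * ‖x - w‖ ≤ 1 * ‖x - w‖ :=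
      mul_le_mul_of_nonneg_right h4 (norm_nonneg _)
    linarith


/-! ### Generators with control of the supports -/

section Gen

variable [WellFoundedLT ι] [CompleteSpace V]

theorem exists_generators (F : Frame ι V) (B : BranchSystem F) :
    ∃ G : Generators B, ∀ (μ : ι) (k : ℕ) (l : ι), (∀ a ∈ (B.br μ).supp k, a < l) →
      G.x μ k ∈ Submodule.span ℝ (G.y '' Set.Iio l) := by
  refine ⟨{
    y := fun μ => yOf B μ (xRec B μ)
    x := xRec B
    x_mem := fun μ k => (xRec_spec B μ).2 k
    x_sub_node := fun μ k => (xRec_spec B μ).1 k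
    y_eq := fun μ => rfl
    y_self := fun μ => H168.y_self B μ
    y_lt := fun μ ν h => H168.y_lt B μ ν h
    norming := fun v M hM h => norming_aux B v M hM h
    norming_lt := fun a v M hM hP h => norming_lt_aux B a v M hM hP h }, ?_⟩
  intro μ k l hl
  change xRec B μ k ∈ Submodule.span ℝ ((fun a => yOf B a (xRec B a)) '' Set.Iio l)
  rw [xRec_eq B μ, step]
  split_ifs with h
  · rw [cand_eq]
    refine Submodule.sum_mem _ fun a ha => Submodule.smul_mem _ _ (Submodule.sub_mem _ ?_ ?_)
    · exact Submodule.subset_span ⟨a, hl a ha, rfl⟩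
    · refine Submodule.sum_mem _ fun j _ => ?_
      refine Submodule.span_mono (Set.image_mono ?_) ((xRec_spec B a).2 j)
      exact Set.Iio_subset_Iio (hl a ha).le
  · exact Submodule.zero_mem _

end Gen

theorem es_P_of_le (F : Frame ι V) {l μ : ι} (h : l ≤ μ) (v : V) : F.es μ (F.P l v) = 0 := by
  have : (F.es μ).comp (F.P l) = 0 := by
    refine ContinuousLinearMap.ext_on F.denseSpan ?_
    rintro _ ⟨i, rfl⟩
    rw [ContinuousLinearMap.comp_apply, F.P_e]
    split_ifs with hi
    · rw [F.es_e, if_neg (hi.trans_le h).ne']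
      rfl
    · rw [map_zero]
      rfl
  have h2 := congrArg (fun f : V →L[ℝ] ℝ => f v) this
  exact h2

theorem node_P {F : Frame ι V} (b : Branch F) (k : ℕ) {l : ι} (h : ∀ a ∈ b.supp k, a < l)
    (v : V) : b.node k (F.P l v) = b.node k v := by
  have : (b.node k).comp (F.P l) = b.node k := by
    refine ContinuousLinearMap.ext_on F.denseSpan ?_
    rintro _ ⟨i, rfl⟩
    rw [ContinuousLinearMap.comp_apply, F.P_e]
    split_ifs with hi
    · rfl
    · rw [map_zero, Branch.node_apply]
      symm
      refine Finset.sum_eq_zero fun a ha => ?_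
      rw [F.es_e, if_neg (fun e : a = i => hi (e ▸ h a ha)), mul_zero]
  conv_rhs => rw [← this]
  rfl

theorem lim_P {F : Frame ι V} (b : Branch F) {l : ι} (h : ∀ k, ∀ a ∈ b.supp k, a < l)
    (v : V) : b.lim (F.P l v) = b.lim v := by
  refine tendsto_nhds_unique (b.lim_tendsto (F.P l v)) ?_
  have h1 := b.lim_tendsto v
  refine h1.congr fun K => Finset.sum_congr rfl fun k _ => ?_
  rw [← Branch.node_apply, ← Branch.node_apply, node_P b k (h k)]

theorem tsum_apply [CompleteSpace V] {f : ℕ → StrongDual ℝ V} (hf : Summable f) (v : V) :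
    (∑' k, f k) v = ∑' k, f k v :=
  (ContinuousLinearMap.apply ℝ ℝ v).map_tsum hf

/-- The killing property of a branch system. -/
def Kills (F : Frame ι V) (B : BranchSystem F)
    (hcof : ∀ s : Set ι, s.Countable → ∃ a, ∀ b ∈ s, b < a) : Prop :=
  ∀ l : ι, Order.IsSuccLimit l → ∀ (α : ℕ → ι) (h : ℕ → V), IsBlock (projSystem F hcof) l α h →
    (∀ k, h k ∈ (Submodule.span ℝ (Set.range F.e) : Set V)) → ∀ m : ι, ∃ μ, m ≤ μ ∧ l ≤ μ ∧
      (∀ k, ∀ a ∈ (B.br μ).supp k, a < l) ∧ ∃ (C : ℝ) (u : ℕ → V),
        (∀ i, u i ∈ Submodule.span ℝ (h '' Set.Ici i)) ∧ (∀ i, ‖u i‖ ≤ C) ∧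
          ∀ i, 1 ≤ (B.br μ).lim (u i)

theorem supply_of_kills [WellFoundedLT ι] [CompleteSpace V] {F : Frame ι V} {B : BranchSystem F}
    {hcof : ∀ s : Set ι, s.Countable → ∃ a, ∀ b ∈ s, b < a} (hkill : Kills F B hcof)
    (G : Generators B) (hG : ∀ (μ : ι) (k : ℕ) (l : ι), (∀ a ∈ (B.br μ).supp k, a < l) →
      G.x μ k ∈ Submodule.span ℝ (G.y '' Set.Iio l)) :
    ∀ l : ι, Order.IsSuccLimit l → ∀ (α : ℕ → ι) (h : ℕ → V), IsBlock (projSystem F hcof) l α h →
      (∀ k, h k ∈ (Submodule.span ℝ (Set.range F.e) : Set V)) → ∀ m : ι, ∃ y ∈ G.X,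
        (∀ v, (projSystem F hcof).P m v = v → y v = y ((projSystem F hcof).P l v)) ∧
        ∃ (C : ℝ) (u : ℕ → V), (∀ i, u i ∈ Submodule.span ℝ (h '' Set.Ici i)) ∧
          (∀ i, ‖u i‖ ≤ C) ∧ ∀ i, 1 ≤ y (u i) := by
  intro l hl α h hblock hfin m
  obtain ⟨μ, hmμ, hlμ, hsupp, C, u, hu, huC, hlim⟩ := hkill l hl α h hblock hfin m
  have hC : 0 ≤ C := (norm_nonneg _).trans (huC 0)
  have hsum : Summable fun k => (G.x μ k - (B.br μ).node k) :=
    summable_sub_node B μ _ (G.x_sub_node μ)
  have hy : ∀ v, G.y μ v = F.es μ v + (B.br μ).lim v +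
      ∑' k, (G.x μ k - (B.br μ).node k) v := fun v => by
    rw [G.y_eq, add_apply, add_apply, tsum_apply hsum]
  refine ⟨G.y μ, Submodule.le_topologicalClosure _ (Submodule.subset_span ⟨μ, rfl⟩), ?_, ?_⟩
  · intro v hv
    change F.P m v = v at hv
    change G.y μ v = G.y μ (F.P l v)
    rw [hy, hy]
    congr 1
    · congr 1
      · rw [es_P_of_le F hlμ, ← hv, es_P_of_le F hmμ]
      · rw [lim_P _ hsupp]
    · refine tsum_congr fun k => ?_
      rw [sub_apply, sub_apply, node_P _ k (hsupp k), G.span_P (hG μ k l (hsupp k))]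
  · -- the vectors `u i` live on `[α i, l)`
    have hPl : ∀ i, F.P l (u i) = u i := fun i => by
      refine eq_of_mem_span (f := F.P l) (g := ContinuousLinearMap.id ℝ V) ?_ (hu i)
      rintro _ ⟨k, -, rfl⟩
      have h1 : F.P (α (k + 1)) (h k) = h k := hblock.high k
      change F.P l (h k) = h k
      conv_lhs => rw [← h1]
      rw [F.P_P, min_eq_right (hblock.lt (k + 1)).le, h1]
    have hPa : ∀ i j, i ≤ j → F.P (α i) (u j) = 0 := fun i j hij => by
      refine eq_of_mem_span (f := F.P (α i)) (g := 0) ?_ (hu j)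
      rintro _ ⟨k, hk, rfl⟩
      have h1 : F.P (α k) (h k) = 0 := hblock.low k
      have h2 : F.P (α i) (F.P (α k) (h k)) = F.P (α i) (h k) := by
        rw [F.P_P, min_eq_left (hblock.mono.monotone (hij.trans hk))]
      rw [← h2, h1, map_zero]
      rfl
    have hzero : ∀ k, ∀ᶠ i in atTop, (G.x μ k - (B.br μ).node k) (u i) = 0 := fun k => by
      obtain ⟨b, hbl, hb⟩ : ∃ b < l, ∀ a ∈ (B.br μ).supp k, a < b := by
        have hne : ∃ c, c < l := ⟨α 0, hblock.lt 0⟩
        obtain ⟨c, hc⟩ := hne
        classical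
        have h1 : (insert c ((B.br μ).supp k)).max' (Finset.insert_nonempty _ _) < l := by
          rcases Finset.mem_insert.1 (Finset.max'_mem (insert c ((B.br μ).supp k))
            (Finset.insert_nonempty _ _)) with h | h
          · rw [h]; exact hc
          · exact hsupp k _ h
        obtain ⟨b, hcb, hbl⟩ := (not_covBy_iff h1).1 (hl.2 _)
        exact ⟨b, hbl, fun a ha => lt_of_le_of_lt
          (Finset.le_max' _ _ (Finset.mem_insert_of_mem ha)) hcb⟩
      obtain ⟨j, hj⟩ := hblock.cofinal b hbl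
      filter_upwards [eventually_ge_atTop j] with i hi
      have h1 : ∀ a ∈ (B.br μ).supp k, a < α j := fun a ha => (hb a ha).trans_le hj
      rw [sub_apply, ← node_P _ k h1, ← G.span_P (hG μ k _ h1), hPa j i hi, map_zero, map_zero,
        sub_zero]
    have htend : Tendsto (fun i => ∑' k, (G.x μ k - (B.br μ).node k) (u i)) atTop (𝓝 0) := by
      have h0 : (0 : ℝ) = ∑' _ : ℕ, (0 : ℝ) := by simp
      rw [h0]
      refine tendsto_tsum_of_dominated_convergence
        (bound := fun k => 2 * (B.br μ).bd k * C) ?_ ?_ ?_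
      · exact ((B.br μ).bd_summable.mul_left 2).mul_right C
      · intro k
        exact tendsto_const_nhds.congr' (by
          filter_upwards [hzero k] with i hi
          exact hi.symm)
      · refine Filter.Eventually.of_forall fun i k => ?_
        refine ((G.x μ k - (B.br μ).node k).le_opNorm (u i)).trans ?_
        exact mul_le_mul (G.x_sub_node μ k) (huC i) (norm_nonneg _)
          (mul_nonneg zero_le_two ((B.br μ).bd_nonneg k))
    obtain ⟨N, hN⟩ := Filter.eventually_atTop.1
      (htend.eventually (lt_mem_nhds (show (-(1 / 2) : ℝ) < 0 by norm_num)))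
    refine ⟨2 * C, fun i => (2 : ℝ) • u (max i N), fun i => ?_, fun i => ?_, fun i => ?_⟩
    · refine Submodule.smul_mem _ _ (Submodule.span_mono (Set.image_mono ?_) (hu (max i N)))
      exact Set.Ici_subset_Ici.2 (le_max_left _ _)
    · rw [norm_smul, Real.norm_of_nonneg zero_le_two]
      linarith [huC (max i N)]
    · rw [map_smul, smul_eq_mul, hy]
      have h1 := hN (max i N) (le_max_right _ _)
      have h2 := hlim (max i N)
      have h3 : F.es μ (u (max i N)) = 0 := by
        rw [← hPl (max i N), es_P_of_le F hlμ]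
      rw [h3]
      linarith

/-- A branch system with the killing property gives a space without separable quotients. -/
theorem no_quotient_of_kills [WellFoundedLT ι] [NoMaxOrder ι] [Nonempty ι]
    [CompleteSpace V] {F : Frame ι V} {B : BranchSystem F}
    (hcount : ∀ a : ι, (Set.Iio a).Countable)
    {hcof : ∀ s : Set ι, s.Countable → ∃ a, ∀ b ∈ s, b < a} (hkill : Kills F B hcof)
    (G : Generators B) (hG : ∀ (μ : ι) (k : ℕ) (l : ι), (∀ a ∈ (B.br μ).supp k, a < l) →
      G.x μ k ∈ Submodule.span ℝ (G.y '' Set.Iio l)) :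
    ¬ H189.HasSeparableQuotient ℝ G.X ∧ ¬ H189.HasSeparableQuotient ℝ (G.X × G.X) := by
  refine H3.no_quotient_prod (projSystem F hcof) hcount (Submodule.span ℝ (Set.range F.e))
    (fun a b hab w hwa hwb ε hε => frame_dense_interval F a b hab w hwa hwb ε hε) G.X
    (hdual_of_lin G.X fun f C hf => dualIsV F B G f C hf) (supply_of_kills hkill G hG)

end Vale.Agent.P129.H223
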