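import Vale.Agent.P129.H223.Adapter
import Vale.Agent.P129.H3.Final

/-! From a branch system with the killing property over an index set of cardinality `ℵ₁` to
`RealCounterexample`. -/

open Filter Topology Set Cardinal

namespace Vale.Agent.P129.H223

open H168

theorem y_linearIndependent {ι : Type*} [LinearOrder ι] {V : Type*} [NormedAddCommGroup V]
    [NormedSpace ℝ V] {F : Frame ι V} {B : BranchSystem F} (G : Generators B) :
    LinearIndependent ℝ G.y := by
  classical
  rw [linearIndependent_iff']
  intro s c hsum
  by_contra hne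
  push Not at hne
  obtain ⟨i, his, hci⟩ := hne
  let t : Finset ι := s.filter (fun i => c i ≠ 0)
  have ht : t.Nonempty := ⟨i, by simp [t, his, hci]⟩
  let n := t.max' ht
  have hnt : n ∈ t := t.max'_mem ht
  have hns : n ∈ s := (Finset.mem_filter.1 hnt).1
  have hcn : c n ≠ 0 := (Finset.mem_filter.1 hnt).2
  have h1 := congrArg (fun f : V →L[ℝ] ℝ => f (F.e n)) hsum
  simp only [_root_.sum_apply, _root_.smul_apply, smul_eq_mul, _root_.zero_apply] at h1
  rw [Finset.sum_eq_single n] at h1
  · rw [G.y_self, mul_one] at h1; exact hcn h1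
  · intro k hk hkn
    rcases lt_or_gt_of_ne hkn with h | h
    · rw [G.y_lt k n h, mul_zero]
    · by_cases hck : c k = 0
      · rw [hck, zero_mul]
      · exact absurd (t.le_max' k (by simp [t, hk, hck])) (not_le.2 h)
  · intro h; exact absurd hns h

theorem realCounterexample_of_kills {ι : Type} [LinearOrder ι] [WellFoundedLT ι] [NoMaxOrder ι]
    [Nonempty ι] {V : Type} [NormedAddCommGroup V] [NormedSpace ℝ V] [CompleteSpace V]
    {F : Frame ι V} {B : BranchSystem F} (hcard : #ι ≤ ℵ_ 1)
    (hcount : ∀ a : ι, (Set.Iio a).Countable)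
    {hcof : ∀ s : Set ι, s.Countable → ∃ a, ∀ b ∈ s, b < a} (hkill : Kills F B hcof) :
    H3.RealCounterexample := by
  obtain ⟨G, hG⟩ := exists_generators F B
  have hclosed : IsClosed (G.X : Set (StrongDual ℝ V)) := Submodule.isClosed_topologicalClosure _
  obtain ⟨h1, h2⟩ := no_quotient_of_kills hcount hkill G hG
  let y : ι → G.X := fun μ =>
    ⟨G.y μ, Submodule.le_topologicalClosure _ (Submodule.subset_span ⟨μ, rfl⟩)⟩
  have himg : Subtype.val '' (Submodule.span ℝ (Set.range y) : Set G.X) =
      (Submodule.span ℝ (Set.range G.y) : Set (StrongDual ℝ V)) := by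
    have h3 : (Submodule.span ℝ (Set.range y)).map G.X.subtype =
        Submodule.span ℝ (Set.range G.y) := by
      rw [Submodule.map_span, ← Set.range_comp]
      rfl
    rw [← h3]
    rfl
  have hspan : Dense (Submodule.span ℝ (Set.range y) : Set G.X) := by
    refine Subtype.dense_iff.2 fun x hx => ?_
    have h5 : x ∈ closure (Submodule.span ℝ (Set.range G.y) : Set (StrongDual ℝ V)) := hx
    rw [← himg] at h5
    exact h5
  refine ⟨G.X, inferInstance, inferInstance, hclosed.completeSpace_coe, ?_, ?_, h1, h2⟩
  · refine (H189.dens_le_of_dense_span (𝕜 := ℝ) (Set.range y) hspan).trans (max_le ?_ ?_)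
    · exact Cardinal.mk_range_le.trans hcard
    · exact (Cardinal.aleph0_le_aleph 1)
  · intro hfin
    have h3 : LinearIndependent ℝ y := by
      apply LinearIndependent.of_comp G.X.subtype
      exact y_linearIndependent G
    have h4 : Finite ι := h3.finite
    exact not_finite ι

end Vale.Agent.P129.H223
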